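import Mathlib.MeasureTheory.Measure.Haar.InnerProductSpace
import Mathlib.Analysis.InnerProductSpace.PiL2
import Mathlib.MeasureTheory.Integral.Lebesgue.Basic

/-! Definitions for P121: the three-marginal Coulomb transport problem in `ℝ³`. -/

open MeasureTheory
open scoped ENNReal

namespace Vale.Agent.P121

/-- Euclidean space `ℝ³`. -/
abbrev E3 : Type := EuclideanSpace ℝ (Fin 3)

/-- The Coulomb cost `1/|x-y| + 1/|x-z| + 1/|y-z|`, valued in `[0, ∞]`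
(it is `∞` when two of the points coincide, since `0⁻¹ = ∞` in `ℝ≥0∞`). -/
noncomputable def coulomb (x y z : E3) : ℝ≥0∞ :=
  ‖x - y‖ₑ⁻¹ + ‖x - z‖ₑ⁻¹ + ‖y - z‖ₑ⁻¹

/-- `π ∈ Π(μ, μ, μ)`: a Borel probability measure on `(ℝ³)³` whose three coordinate marginals
all equal `μ`. -/
def IsCoupling (μ : Measure E3) (π : Measure (E3 × E3 × E3)) : Prop :=
  IsProbabilityMeasure π ∧ π.map (fun p => p.1) = μ ∧ π.map (fun p => p.2.1) = μ ∧
    π.map (fun p => p.2.2) = μ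

/-- The Kantorovich value `𝓔(μ) = inf_{π ∈ Π(μ,μ,μ)} ∫ c dπ`. -/
noncomputable def kantorovich (μ : Measure E3) : ℝ≥0∞ :=
  ⨅ (π : Measure (E3 × E3 × E3)) (_ : IsCoupling μ π), ∫⁻ p, coulomb p.1 p.2.1 p.2.2 ∂π

/-- `(T₂, T₃)` defines an optimal Monge plan for `μ`: Borel maps preserving `μ` whose cost
`∫ c(x, T₂ x, T₃ x) dμ` equals the Kantorovich value. -/
def IsOptimalMonge (μ : Measure E3) (T₂ T₃ : E3 → E3) : Prop :=
  Measurable T₂ ∧ Measurable T₃ ∧ μ.map T₂ = μ ∧ μ.map T₃ = μ ∧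
    ∫⁻ x, coulomb x (T₂ x) (T₃ x) ∂μ = kantorovich μ

end Vale.Agent.P121
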