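import Vale.Agent.P121.Local

/-! The dual inequality near the collinear configurations, and crude bounds elsewhere. -/

open Filter Topology Set Metric
open scoped RealInnerProductSpace NNReal ENNReal

namespace Vale.Agent.P121

/-- real-valued Coulomb cost -/
noncomputable def cR (x y z : E3) : ℝ := ‖x - y‖⁻¹ + ‖x - z‖⁻¹ + ‖y - z‖⁻¹
/-- potential on the central cluster -/
noncomputable def uu (x : E3) : ℝ := 2 - 2 * ‖x‖ ^ 2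
/-- potential on the cluster around `-e` -/
noncomputable def ww (e z : E3) : ℝ := 1 / 4 - 2 * ‖z + e‖ ^ 2 + 5 / 4 * ⟪e, z + e⟫
/-- potential on the cluster around `e` -/
noncomputable def val (e x y z : E3) : ℝ := cR x y z - uu x - ww e z

lemma dist_bounds {a b ca cb : E3} (ha : ‖a - ca‖ ≤ 1 / 100) (hb : ‖b - cb‖ ≤ 1 / 100) :
    ‖ca - cb‖ - 1 / 50 ≤ ‖a - b‖ ∧ ‖a - b‖ ≤ ‖ca - cb‖ + 1 / 50 := by
  have h1 : ‖ca - cb‖ ≤ ‖a - b‖ + ‖a - ca‖ + ‖b - cb‖ := by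
    calc ‖ca - cb‖ = ‖(a - b) - (a - ca) + (b - cb)‖ := by congr 1; abel
      _ ≤ ‖(a - b) - (a - ca)‖ + ‖b - cb‖ := norm_add_le _ _
      _ ≤ _ := by gcongr; exact norm_sub_le _ _
  have h2 : ‖a - b‖ ≤ ‖ca - cb‖ + ‖a - ca‖ + ‖b - cb‖ := by
    calc ‖a - b‖ = ‖(ca - cb) + (a - ca) - (b - cb)‖ := by congr 1; abel
      _ ≤ ‖(ca - cb) + (a - ca)‖ + ‖b - cb‖ := norm_sub_le _ _
      _ ≤ _ := by gcongr; exact norm_add_le _ _
  constructor <;> linarith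

lemma dist_xy {e x y : E3} (he : ‖e‖ = 1) (hx : ‖x‖ ≤ 1 / 100) (hy : ‖y - e‖ ≤ 1 / 100) :
    49 / 50 ≤ ‖x - y‖ ∧ ‖x - y‖ ≤ 51 / 50 := by
  have := dist_bounds (a := x) (ca := 0) (by simpa using hx) hy
  rw [zero_sub, norm_neg, he] at this
  constructor <;> linarith [this.1, this.2]

lemma dist_xz {e x z : E3} (he : ‖e‖ = 1) (hx : ‖x‖ ≤ 1 / 100) (hz : ‖z + e‖ ≤ 1 / 100) :
    49 / 50 ≤ ‖x - z‖ ∧ ‖x - z‖ ≤ 51 / 50 :=
  dist_xy (e := -e) (by simpa using he) hx (by simpa using hz)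

lemma dist_yz {e y z : E3} (he : ‖e‖ = 1) (hy : ‖y - e‖ ≤ 1 / 100) (hz : ‖z + e‖ ≤ 1 / 100) :
    99 / 50 ≤ ‖y - z‖ ∧ ‖y - z‖ ≤ 101 / 50 := by
  have := dist_bounds (b := z) (cb := -e) hy (by simpa using hz)
  rw [sub_neg_eq_add, ← two_smul ℝ e, norm_smul, he] at this
  norm_num at this
  constructor <;> linarith [this.1, this.2]

lemma ne_zero_of_le {r : E3} (h : 49 / 50 ≤ ‖r‖) : r ≠ 0 := by
  rintro rfl; norm_num at h

lemma cube_inv_le {r : E3} (h : 49 / 50 ≤ ‖r‖) : (‖r‖ ^ 3)⁻¹ ≤ 11 / 10 := by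
  have h1 : (49 / 50 : ℝ) ^ 3 ≤ ‖r‖ ^ 3 := by gcongr
  rw [inv_le_comm₀ (by positivity) (by norm_num)]
  norm_num at h1 ⊢
  linarith

theorem main_ineq {e x0 y z0 x z : E3} (he : ‖e‖ = 1) (hx0 : ‖x0‖ ≤ 1 / 100)
    (hy : ‖y - e‖ ≤ 1 / 100) (hz0 : ‖z0 + e‖ ≤ 1 / 100) (hF : FF e (x0, y, z0) = 0)
    (hx : ‖x‖ ≤ 1 / 100) (hz : ‖z + e‖ ≤ 1 / 100) :
    val e x0 y z0 + 1 / 4 * ‖x - x0‖ ^ 2 ≤ val e x y z := by
  have d1 := (dist_xy he hx0 hy).1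
  have d2 := (dist_xz he hx0 hz0).1
  have d3 : 49 / 50 ≤ ‖y - z0‖ := by linarith [(dist_yz he hy hz0).1]
  have d1' := (dist_xy he hx hy).1
  have d2' := (dist_xz he hx hz).1
  have d3' : 49 / 50 ≤ ‖y - z‖ := by linarith [(dist_yz he hy hz).1]
  have i1 := inv_norm_ge (ne_zero_of_le d1) (ne_zero_of_le d1')
  have i2 := inv_norm_ge (ne_zero_of_le d2) (ne_zero_of_le d2')
  have i3 := inv_norm_ge (ne_zero_of_le d3) (ne_zero_of_le d3')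
  set dx := x - x0 with hdx
  set dz := z - z0 with hdz
  have e1 : x - y - (x0 - y) = dx := by rw [hdx]; abel
  have e2 : x - z - (x0 - z0) = dx - dz := by rw [hdx, hdz]; abel
  have e3 : y - z - (y - z0) = -dz := by rw [hdz]; abel
  rw [e1] at i1
  rw [e2, inner_sub_right] at i2
  rw [e3, inner_neg_right, norm_neg] at i3
  have k1 := cube_inv_le d1
  have k2 := cube_inv_le d2
  have k3 := cube_inv_le d3
  have q1 : (‖x0 - y‖ ^ 3)⁻¹ * ‖dx‖ ^ 2 ≤ 11 / 10 * ‖dx‖ ^ 2 := by gcongr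
  have q3 : (‖y - z0‖ ^ 3)⁻¹ * ‖dz‖ ^ 2 ≤ 11 / 10 * ‖dz‖ ^ 2 := by gcongr
  have q2 : (‖x0 - z0‖ ^ 3)⁻¹ * ‖dx - dz‖ ^ 2 ≤ 11 / 10 * (2 * ‖dx‖ ^ 2 + 2 * ‖dz‖ ^ 2) := by
    have : ‖dx - dz‖ ^ 2 ≤ 2 * ‖dx‖ ^ 2 + 2 * ‖dz‖ ^ 2 := by
      have h1 := norm_sub_le dx dz
      have h2 : ‖dx - dz‖ ^ 2 ≤ (‖dx‖ + ‖dz‖) ^ 2 := by gcongr
      nlinarith [sq_nonneg (‖dx‖ - ‖dz‖)]
    gcongr
  simp only [FF, Prod.mk_eq_zero] at hF
  obtain ⟨hF1, hF2⟩ := hF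
  have f1 := congrArg (fun v => ⟪v, dx⟫) hF1
  have f2 := congrArg (fun v => ⟪v, dz⟫) hF2
  have g : G (y - x0) = - G (x0 - y) := by rw [← G_neg, neg_sub]
  simp only [g, inner_add_left, inner_sub_left, inner_neg_left, real_inner_smul_left,
    inner_zero_left] at f1 f2
  have hu : uu x = uu x0 - 4 * ⟪x0, dx⟫ - 2 * ‖dx‖ ^ 2 := by
    have : x = x0 + dx := by rw [hdx]; abel
    unfold uu
    rw [this, norm_add_sq_real]; ring
  have hw : ww e z = ww e z0 - 4 * (⟪z0, dz⟫ + ⟪e, dz⟫) - 2 * ‖dz‖ ^ 2 + 5 / 4 * ⟪e, dz⟫ := by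
    have : z + e = (z0 + e) + dz := by rw [hdz]; abel
    unfold ww
    rw [this, norm_add_sq_real, inner_add_right, inner_add_left]; ring
  unfold val cR
  rw [hu, hw]
  nlinarith [sq_nonneg ‖dx‖, sq_nonneg ‖dz‖]

lemma uu_bounds {x : E3} (hx : ‖x‖ ≤ 1 / 100) : 9998 / 5000 ≤ uu x ∧ uu x ≤ 2 := by
  unfold uu
  have : ‖x‖ ^ 2 ≤ (1 / 100) ^ 2 := by gcongr
  constructor <;> nlinarith [sq_nonneg ‖x‖]

lemma ww_bounds {e z : E3} (he : ‖e‖ = 1) (hz : ‖z + e‖ ≤ 1 / 100) :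
    237 / 1000 ≤ ww e z ∧ ww e z ≤ 263 / 1000 := by
  unfold ww
  have h1 : ‖z + e‖ ^ 2 ≤ (1 / 100) ^ 2 := by gcongr
  have h2 : |⟪e, z + e⟫| ≤ 1 / 100 := by
    refine (abs_real_inner_le_norm _ _).trans ?_
    rw [he, one_mul]; exact hz
  have h3 := abs_le.1 h2
  constructor <;> nlinarith [sq_nonneg ‖z + e‖]

lemma inv_bounds {t a b : ℝ} (ha : 0 < a) (h1 : a ≤ t) (h2 : t ≤ b) : b⁻¹ ≤ t⁻¹ ∧ t⁻¹ ≤ a⁻¹ :=
  ⟨inv_anti₀ (ha.trans_le h1) h2, inv_anti₀ ha h1⟩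

lemma val_bounds {e x y z : E3} (he : ‖e‖ = 1) (hx : ‖x‖ ≤ 1 / 100)
    (hy : ‖y - e‖ ≤ 1 / 100) (hz : ‖z + e‖ ≤ 1 / 100) :
    0 ≤ val e x y z ∧ val e x y z ≤ 31 / 100 := by
  have d1 := dist_xy he hx hy
  have d2 := dist_xz he hx hz
  have d3 := dist_yz he hy hz
  have i1 := inv_bounds (by norm_num) d1.1 d1.2
  have i2 := inv_bounds (by norm_num) d2.1 d2.2
  have i3 := inv_bounds (by norm_num) d3.1 d3.2
  have hu := uu_bounds hx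
  have hw := ww_bounds he hz
  unfold val cR
  norm_num at i1 i2 i3
  constructor <;> linarith [i1.1, i1.2, i2.1, i2.2, i3.1, i3.2, hu.1, hu.2, hw.1, hw.2]

lemma ofReal_inv_le {r : E3} {D : ℝ} (hD : 0 < D) (h : ‖r‖ ≤ D) : ENNReal.ofReal D⁻¹ ≤ ‖r‖ₑ⁻¹ := by
  rw [ENNReal.ofReal_inv_of_pos hD, ← ofReal_norm]
  exact ENNReal.inv_le_inv.2 (ENNReal.ofReal_le_ofReal h)

lemma coulomb_ge {x y z : E3} {a b c : ℝ} (ha : 0 < a) (hb : 0 < b) (hc : 0 < c)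
    (h1 : ‖x - y‖ ≤ a) (h2 : ‖x - z‖ ≤ b) (h3 : ‖y - z‖ ≤ c) :
    ENNReal.ofReal (a⁻¹ + b⁻¹ + c⁻¹) ≤ coulomb x y z := by
  rw [ENNReal.ofReal_add (by positivity) (by positivity),
    ENNReal.ofReal_add (by positivity) (by positivity)]
  unfold coulomb
  gcongr
  exacts [ofReal_inv_le ha h1, ofReal_inv_le hb h2, ofReal_inv_le hc h3]

lemma coulomb_eq {x y z : E3} (h1 : x - y ≠ 0) (h2 : x - z ≠ 0) (h3 : y - z ≠ 0) :
    coulomb x y z = ENNReal.ofReal (cR x y z) := by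
  unfold coulomb cR
  rw [ENNReal.ofReal_add (by positivity) (by positivity),
    ENNReal.ofReal_add (by positivity) (by positivity),
    ENNReal.ofReal_inv_of_pos (norm_pos_iff.2 h1), ENNReal.ofReal_inv_of_pos (norm_pos_iff.2 h2),
    ENNReal.ofReal_inv_of_pos (norm_pos_iff.2 h3), ofReal_norm, ofReal_norm, ofReal_norm]

lemma coulomb_swap12 (x y z : E3) : coulomb x y z = coulomb y x z := by
  unfold coulomb
  rw [enorm_sub_rev x y]; ring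

lemma coulomb_swap23 (x y z : E3) : coulomb x y z = coulomb x z y := by
  unfold coulomb
  rw [enorm_sub_rev y z]; ring

lemma measurable_coulomb : Measurable fun p : E3 × E3 × E3 => coulomb p.1 p.2.1 p.2.2 := by
  unfold coulomb
  fun_prop

end Vale.Agent.P121
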