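import Vale.Agent.P121.Defs
import Mathlib.Analysis.Calculus.ImplicitFunction.ProdDomain
import Mathlib.Analysis.InnerProductSpace.Calculus
import Mathlib.Analysis.SpecialFunctions.Pow.Deriv
import Mathlib.Analysis.Normed.Module.FiniteDimension

/-! Local analysis: the force-balance equations near the collinear configuration `(0, e, -e)`. -/

open Filter Topology Set Metric
open scoped RealInnerProductSpace NNReal

namespace Vale.Agent.P121

/-- the field `r / |r|³` -/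
noncomputable def G (r : E3) : E3 := ((‖r‖ ^ 2) ^ (-3 / 2 : ℝ)) • r

lemma G_eq {r : E3} (hr : r ≠ 0) : G r = (‖r‖ ^ 3)⁻¹ • r := by
  have h : 0 < ‖r‖ := norm_pos_iff.2 hr
  unfold G
  congr 1
  rw [← Real.rpow_natCast, ← Real.rpow_mul h.le, ← Real.rpow_natCast, ← Real.rpow_neg h.le]
  norm_num

lemma inv_norm_ge {r r' : E3} (hr : r ≠ 0) (hr' : r' ≠ 0) :
    ‖r‖⁻¹ - ⟪G r, r' - r⟫ - (‖r‖ ^ 3)⁻¹ * ‖r' - r‖ ^ 2 / 2 ≤ ‖r'‖⁻¹ := by
  have ha : 0 < ‖r‖ := norm_pos_iff.2 hr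
  have hb : 0 < ‖r'‖ := norm_pos_iff.2 hr'
  have h1 : ‖r'‖ ^ 2 = ‖r‖ ^ 2 + 2 * ⟪r, r' - r⟫ + ‖r' - r‖ ^ 2 := by
    have : r' = r + (r' - r) := by abel
    conv_lhs => rw [this]
    rw [norm_add_sq_real]
  rw [G_eq hr, real_inner_smul_left]
  set a := ‖r‖
  set b := ‖r'‖
  have h2 : a⁻¹ - (a ^ 3)⁻¹ * ⟪r, r' - r⟫ - (a ^ 3)⁻¹ * ‖r' - r‖ ^ 2 / 2
      = a⁻¹ - (a ^ 3)⁻¹ * (b ^ 2 - a ^ 2) / 2 := by
    rw [h1]; ring
  rw [h2]
  have h3 : b⁻¹ - (a⁻¹ - (a ^ 3)⁻¹ * (b ^ 2 - a ^ 2) / 2)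
      = (b - a) ^ 2 * (b + 2 * a) / (2 * a ^ 3 * b) := by
    field_simp; ring
  have h4 : 0 ≤ (b - a) ^ 2 * (b + 2 * a) / (2 * a ^ 3 * b) := by positivity
  linarith

/-- the linear map `h ↦ h - 3 ⟪e, h⟫ e` -/
noncomputable def P (e : E3) : E3 →L[ℝ] E3 :=
  ContinuousLinearMap.id ℝ E3 - (3 : ℝ) • (innerSL ℝ e).smulRight e

lemma P_apply (e h : E3) : P e h = h - (3 * ⟪e, h⟫) • e := by
  simp [P, smul_smul]

lemma hasStrictFDerivAt_G {e : E3} (he : ‖e‖ = 1) {t : ℝ} (ht : 0 < t) :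
    HasStrictFDerivAt G ((t ^ 3)⁻¹ • P e) (t • e) := by
  have hn : ‖t • e‖ ^ 2 = t ^ 2 := by rw [norm_smul, he, Real.norm_eq_abs, mul_one, sq_abs]
  have h1 := ((hasStrictFDerivAt_norm_sq (t • e)).rpow_const (p := (-3 / 2 : ℝ))
    (Or.inl (by rw [hn]; positivity))).smul (hasStrictFDerivAt_id (t • e))
  have e1 : (t ^ 2) ^ (-3 / 2 : ℝ) = (t ^ 3)⁻¹ := by
    rw [← Real.rpow_natCast, ← Real.rpow_mul ht.le, ← Real.rpow_natCast, ← Real.rpow_neg ht.le]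
    norm_num
  have e2 : (t ^ 2) ^ (-3 / 2 - 1 : ℝ) = (t ^ 5)⁻¹ := by
    rw [← Real.rpow_natCast, ← Real.rpow_mul ht.le, ← Real.rpow_natCast, ← Real.rpow_neg ht.le]
    norm_num
  refine HasStrictFDerivAt.congr_fderiv h1 (ContinuousLinearMap.ext fun h => ?_)
  rw [hn, e1, e2]
  simp only [smul_apply, P_apply, add_apply,
    ContinuousLinearMap.id_apply, ContinuousLinearMap.smulRight_apply, innerSL_apply_apply, id,
    real_inner_smul_left, smul_eq_mul, nsmul_eq_mul, smul_smul, smul_sub]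
  rw [sub_eq_add_neg, ← neg_smul]
  congr 2
  field_simp
  ring

lemma G_neg (r : E3) : G (-r) = - G r := by simp [G]

lemma G_smul {e : E3} (he : ‖e‖ = 1) {t : ℝ} (ht : 0 < t) : G (t • e) = (t ^ 2)⁻¹ • e := by
  have he0 : e ≠ 0 := by rintro rfl; simp at he
  rw [G_eq (smul_ne_zero ht.ne' he0), norm_smul, he, Real.norm_eq_abs, abs_of_pos ht, smul_smul]
  congr 1
  field_simp

/-- the force-balance map -/
noncomputable def FF (e : E3) (p : E3 × E3 × E3) : E3 × E3 :=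
  (G (p.2.1 - p.1) - G (p.1 - p.2.2) + (4 : ℝ) • p.1,
    G (p.1 - p.2.2) + G (p.2.1 - p.2.2) + (4 : ℝ) • (p.2.2 + e) - (5 / 4 : ℝ) • e)

/-- first coordinate -/
noncomputable def pX : E3 × E3 × E3 →L[ℝ] E3 := ContinuousLinearMap.fst ℝ E3 (E3 × E3)
/-- second coordinate -/
noncomputable def pY : E3 × E3 × E3 →L[ℝ] E3 :=
  (ContinuousLinearMap.fst ℝ E3 E3).comp (ContinuousLinearMap.snd ℝ E3 (E3 × E3))
/-- third coordinate -/
noncomputable def pZ : E3 × E3 × E3 →L[ℝ] E3 :=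
  (ContinuousLinearMap.snd ℝ E3 E3).comp (ContinuousLinearMap.snd ℝ E3 (E3 × E3))

/-- derivative of the force-balance map -/
noncomputable def DF (e : E3) : E3 × E3 × E3 →L[ℝ] E3 × E3 :=
  ((P e).comp (pY - pX) - (P e).comp (pX - pZ) + (4 : ℝ) • pX).prod
    ((P e).comp (pX - pZ) + (1 / 8 : ℝ) • (P e).comp (pY - pZ) + (4 : ℝ) • pZ)

lemma DF_apply (e a b c : E3) : DF e (a, b, c) =
    (P e (b - a) - P e (a - c) + (4 : ℝ) • a,
      P e (a - c) + (1 / 8 : ℝ) • P e (b - c) + (4 : ℝ) • c) := by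
  simp [DF, pX, pY, pZ]

lemma FF_base {e : E3} (he : ‖e‖ = 1) : FF e (0, e, -e) = 0 := by
  have h1 : G e = e := by simpa using G_smul he one_pos
  have h2 : G (e + e) = (1 / 4 : ℝ) • e := by
    rw [← two_smul ℝ e, G_smul he two_pos]; norm_num
  simp only [FF, sub_zero, sub_neg_eq_add, zero_add, h1, h2, smul_zero, add_zero, sub_self,
    neg_add_cancel, Prod.mk_eq_zero, true_and]
  module

lemma hasStrictFDerivAt_FF {e : E3} (he : ‖e‖ = 1) :
    HasStrictFDerivAt (FF e) (DF e) (0, e, -e) := by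
  have g1 : HasStrictFDerivAt G (P e) e := by simpa using hasStrictFDerivAt_G he one_pos
  have g2 : HasStrictFDerivAt G ((1 / 8 : ℝ) • P e) (e + e) := by
    have := hasStrictFDerivAt_G he two_pos
    rw [two_smul] at this
    convert this using 2
    norm_num
  have a1 : HasStrictFDerivAt (fun p : E3 × E3 × E3 => G (p.2.1 - p.1))
      ((P e).comp (pY - pX)) (0, e, -e) := by
    refine HasStrictFDerivAt.comp (0, e, -e) (g := G) (f := fun p : E3 × E3 × E3 => p.2.1 - p.1)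
      (by simpa using g1) (pY - pX).hasStrictFDerivAt
  have a2 : HasStrictFDerivAt (fun p : E3 × E3 × E3 => G (p.1 - p.2.2))
      ((P e).comp (pX - pZ)) (0, e, -e) := by
    refine HasStrictFDerivAt.comp (0, e, -e) (g := G) (f := fun p : E3 × E3 × E3 => p.1 - p.2.2)
      (by simpa using g1) (pX - pZ).hasStrictFDerivAt
  have a3 : HasStrictFDerivAt (fun p : E3 × E3 × E3 => G (p.2.1 - p.2.2))
      (((1 / 8 : ℝ) • P e).comp (pY - pZ)) (0, e, -e) := by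
    refine HasStrictFDerivAt.comp (0, e, -e) (g := G) (f := fun p : E3 × E3 × E3 => p.2.1 - p.2.2)
      (by simpa using g2) (pY - pZ).hasStrictFDerivAt
  have a4 : HasStrictFDerivAt (fun p : E3 × E3 × E3 => (4 : ℝ) • p.1) ((4 : ℝ) • pX)
      (0, e, -e) := ((4 : ℝ) • pX).hasStrictFDerivAt
  have a5 : HasStrictFDerivAt (fun p : E3 × E3 × E3 => (4 : ℝ) • (p.2.2 + e)) ((4 : ℝ) • pZ)
      (0, e, -e) := (pZ.hasStrictFDerivAt.add_const e).const_smul (4 : ℝ)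
  exact ((a1.sub a2).add a4).prodMk (((a2.add a3).add a5).sub_const _)

lemma inner_P {e : E3} (he : ‖e‖ = 1) (h : E3) : ⟪e, P e h⟫ = -2 * ⟪e, h⟫ := by
  rw [P_apply, inner_sub_right, real_inner_smul_right, real_inner_self_eq_norm_sq, he]; ring

/-- the kernel of `DF` is a graph over each of the three coordinates -/
lemma ker_DF {e : E3} (he : ‖e‖ = 1) {a b c : E3} (h : DF e (a, b, c) = 0)
    (h0 : a = 0 ∨ b = 0 ∨ c = 0) : a = 0 ∧ b = 0 ∧ c = 0 := by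
  rw [DF_apply, Prod.mk_eq_zero] at h
  obtain ⟨h1, h2⟩ := h
  have i1 := congrArg (fun v => ⟪e, v⟫) h1
  have i2 := congrArg (fun v => ⟪e, v⟫) h2
  simp only [inner_add_right, inner_sub_right, inner_P he, real_inner_smul_right,
    inner_zero_right] at i1 i2
  have hl : ⟪e, a⟫ = 0 ∧ ⟪e, b⟫ = 0 ∧ ⟪e, c⟫ = 0 := by
    rcases h0 with rfl | rfl | rfl <;> simp only [inner_zero_right] at i1 i2 <;>
      refine ⟨?_, ?_, ?_⟩ <;> first | exact inner_zero_right _ | linarith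
  simp only [P_apply, inner_sub_right, hl.1, hl.2.1, hl.2.2, sub_self, mul_zero, zero_smul,
    sub_zero] at h1 h2
  rcases h0 with rfl | rfl | rfl
  · have hc : c = 0 := by linear_combination (norm := module) (-1 / 22 : ℝ) • h1 + (4 / 11 : ℝ) • h2
    refine ⟨rfl, ?_, hc⟩
    subst hc; simpa using h1
  · have hc : c = 0 := by linear_combination (norm := module) (-4 / 19 : ℝ) • h1 + (8 / 19 : ℝ) • h2
    refine ⟨?_, rfl, hc⟩
    subst hc; simpa using h2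
  · have ha : a = 0 := by linear_combination (norm := module) (-1 / 6 : ℝ) • h1 + (4 / 3 : ℝ) • h2
    refine ⟨ha, ?_, rfl⟩
    subst ha; simpa using h1

lemma isInvertible_DF {e : E3} (he : ‖e‖ = 1) :
    ((DF e).comp (ContinuousLinearMap.inr ℝ E3 (E3 × E3))).IsInvertible := by
  set L := (DF e).comp (ContinuousLinearMap.inr ℝ E3 (E3 × E3))
  have hinj : Function.Injective (L : E3 × E3 →ₗ[ℝ] E3 × E3) := by
    rw [injective_iff_map_eq_zero]
    rintro ⟨b, c⟩ h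
    have := ker_DF he (a := 0) (b := b) (c := c) h (Or.inl rfl)
    rw [this.2.1, this.2.2]; rfl
  exact ⟨(LinearEquiv.ofInjectiveEndo _ hinj).toContinuousLinearEquiv, ContinuousLinearMap.ext fun x => rfl⟩

lemma local_bilip {Y : E3 → E3} {Y' : E3 →L[ℝ] E3} (hY : HasStrictFDerivAt Y Y' 0)
    (hinj : ∀ v, Y' v = 0 → v = 0) :
    ∃ K : ℝ≥0, ∃ s ∈ 𝓝 (0 : E3), ContinuousOn Y s ∧
      ∀ x ∈ s, ∀ x' ∈ s, ‖x - x'‖ ≤ K * ‖Y x - Y x'‖ := by
  obtain ⟨K, hK0, hK⟩ := (Y' : E3 →ₗ[ℝ] E3).exists_antilipschitzWith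
    (LinearMap.ker_eq_bot'.2 hinj)
  obtain ⟨s, hs, happ⟩ := hY.approximates_deriv_on_nhds (c := K⁻¹ / 2) (Or.inr (by positivity))
  refine ⟨2 * K, s, hs, happ.continuousOn, fun x hx x' hx' => ?_⟩
  have h1 := happ x hx x' hx'
  have h2 : ‖x - x'‖ ≤ K * ‖Y' (x - x')‖ := by
    simpa using hK.le_mul_dist (x - x') 0
  have h3 : ‖Y' (x - x')‖ ≤ ‖Y x - Y x'‖ + ‖Y x - Y x' - Y' (x - x')‖ := by
    calc ‖Y' (x - x')‖ = ‖(Y x - Y x') - (Y x - Y x' - Y' (x - x'))‖ := by congr 1; abel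
      _ ≤ _ := norm_sub_le _ _
  have hKpos : (0 : ℝ) < K := hK0
  have h4 : (K : ℝ) * (((K⁻¹ / 2 : ℝ≥0) : ℝ) * ‖x - x'‖) = ‖x - x'‖ / 2 := by
    push_cast; field_simp
  push_cast
  nlinarith [mul_le_mul_of_nonneg_left (h3.trans (add_le_add_right h1 _)) hKpos.le]

/-- solution of the force-balance equations near `(0, e, -e)` -/
theorem exists_branch {e : E3} (he : ‖e‖ = 1) :
    ∃ (Y Z : E3 → E3) (K : ℝ≥0), ∃ s ∈ 𝓝 (0 : E3), ContinuousOn Y s ∧ ContinuousOn Z s ∧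
      (∀ x ∈ s, ∀ x' ∈ s, ‖x - x'‖ ≤ K * ‖Y x - Y x'‖) ∧
      (∀ x ∈ s, ∀ x' ∈ s, ‖x - x'‖ ≤ K * ‖Z x - Z x'‖) ∧
      (∀ x ∈ s, ‖Y x - e‖ ≤ 1 / 100 ∧ ‖Z x + e‖ ≤ 1 / 100 ∧ FF e (x, Y x, Z x) = 0) := by
  have hF := hasStrictFDerivAt_FF he
  have hI := isInvertible_DF he
  set ψ := hF.implicitFunctionOfProdDomain hI
  have hψ := hF.hasStrictFDerivAt_implicitFunctionOfProdDomain hI
  have ht := hF.tendsto_implicitFunctionOfProdDomain hI
  have hev := hF.eventually_apply_implicitFunctionOfProdDomain hI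
  set ψ' := -((DF e).comp (ContinuousLinearMap.inr ℝ E3 (E3 × E3))).inverse ∘L
    ((DF e).comp (ContinuousLinearMap.inl ℝ E3 (E3 × E3))) with hψ'
  have hker : ∀ v, DF e (v, (ψ' v).1, (ψ' v).2) = 0 := by
    intro v
    have h1 : DF e (v, ψ' v) = DF e (v, 0) + DF e (0, ψ' v) := by
      rw [← map_add]; simp
    have h2 : DF e (0, ψ' v) = - DF e (v, 0) := by
      have := hI.self_apply_inverse (DF e (v, 0))
      rw [← this, ContinuousLinearMap.comp_apply, ← map_neg]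
      simp [hψ']
    change DF e (v, ψ' v) = 0
    rw [h1, h2, add_neg_cancel]
  obtain ⟨K1, s1, hs1, hc1, hl1⟩ := local_bilip (Y := fun x => (ψ x).1) hψ.fst (fun v hv =>
    (ker_DF he (hker v) (Or.inr (Or.inl hv))).1)
  obtain ⟨K2, s2, hs2, hc2, hl2⟩ := local_bilip (Y := fun x => (ψ x).2) hψ.snd (fun v hv =>
    (ker_DF he (hker v) (Or.inr (Or.inr hv))).1)
  have t1 : ∀ᶠ x in 𝓝 (0 : E3), ‖(ψ x).1 - e‖ ≤ 1 / 100 := by
    have := (continuous_fst.tendsto _).comp ht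
    filter_upwards [this (closedBall_mem_nhds e (by norm_num : (0 : ℝ) < 1 / 100))] with x hx
    simpa [dist_eq_norm] using hx
  have t2 : ∀ᶠ x in 𝓝 (0 : E3), ‖(ψ x).2 + e‖ ≤ 1 / 100 := by
    have := (continuous_snd.tendsto _).comp ht
    filter_upwards [this (closedBall_mem_nhds (-e) (by norm_num : (0 : ℝ) < 1 / 100))] with x hx
    simpa [dist_eq_norm] using hx
  have hall := t1.and (t2.and hev)
  refine ⟨fun x => (ψ x).1, fun x => (ψ x).2, max K1 K2, s1 ∩ s2 ∩ _,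
    inter_mem (inter_mem hs1 hs2) hall, hc1.mono fun x hx => hx.1.1,
    hc2.mono fun x hx => hx.1.2, fun x hx x' hx' => ?_, fun x hx x' hx' => ?_, fun x hx => ?_⟩
  · refine (hl1 x hx.1.1 x' hx'.1.1).trans ?_
    gcongr; exact_mod_cast le_max_left _ _
  · refine (hl2 x hx.1.2 x' hx'.1.2).trans ?_
    gcongr; exact_mod_cast le_max_right _ _
  · refine ⟨hx.2.1, hx.2.2.1, ?_⟩
    rw [← FF_base he]; exact hx.2.2.2

end Vale.Agent.P121
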