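import Vale.Agent.P121.Setup
import Mathlib.MeasureTheory.Measure.Hausdorff
import Mathlib.MeasureTheory.Measure.Haar.Unique
import Mathlib.MeasureTheory.Integral.Lebesgue.Markov

/-! The counterexample measure. -/

open Filter Topology Set Metric MeasureTheory
open scoped RealInnerProductSpace NNReal ENNReal

namespace Vale.Agent.P121

lemma null_preimage_of_anti {f : E3 → E3} {s N : Set E3} {K : ℝ≥0}
    (h : ∀ x ∈ s, ∀ x' ∈ s, ‖x - x'‖ ≤ K * ‖f x - f x'‖) (hN : volume N = 0) :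
    volume (f ⁻¹' N ∩ s) = 0 := by
  have hanti : AntilipschitzWith K (s.domRestrict f) :=
    AntilipschitzWith.of_le_mul_dist fun x y => by
      simpa [Subtype.dist_eq, dist_eq_norm] using h x x.2 y y.2
  set d : ℝ := (Module.finrank ℝ E3 : ℝ)
  have hd : 0 ≤ d := Nat.cast_nonneg _
  have h1 : μH[d] N = 0 := Measure.absolutelyContinuous_isAddHaarMeasure μH[d] volume hN
  have h2 := hanti.hausdorffMeasure_preimage_le hd N
  rw [h1, mul_zero, nonpos_iff_eq_zero,
    ← isometry_subtype_coe.hausdorffMeasure_image (Or.inl hd)] at h2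
  have h3 : Subtype.val '' (s.domRestrict f ⁻¹' N) = f ⁻¹' N ∩ s := by
    ext x; simp [and_comm]
  rw [h3] at h2
  exact Measure.absolutelyContinuous_isAddHaarMeasure volume μH[d] h2

namespace Setup

variable (S : Setup)

/-- the nine maps -/
def M (j : Fin 3) : Fin 3 → E3 → E3 := ![id, S.Y j, S.Z j]

@[simp] lemma M_zero (j : Fin 3) : S.M j 0 = id := rfl
@[simp] lemma M_one (j : Fin 3) : S.M j 1 = S.Y j := rfl
@[simp] lemma M_two (j : Fin 3) : S.M j 2 = S.Z j := rfl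

lemma measurable_M (j k : Fin 3) : Measurable (S.M j k) := by
  fin_cases k
  exacts [measurable_id, S.mY j, S.mZ j]

lemma continuousOn_M (j k : Fin 3) : ContinuousOn (S.M j k) S.A := by
  fin_cases k
  exacts [continuousOn_id, S.cY j, S.cZ j]

lemma measurableSet_A : MeasurableSet S.A := isClosed_closedBall.measurableSet

lemma isCompact_A : IsCompact S.A := isCompact_closedBall _ _

/-- uniform measure on the central ball -/
noncomputable def α : Measure E3 := (volume S.A)⁻¹ • volume.restrict S.A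

instance : IsProbabilityMeasure S.α := by
  constructor
  simp only [α, Measure.smul_apply, Measure.restrict_apply MeasurableSet.univ, univ_inter,
    smul_eq_mul]
  exact ENNReal.inv_mul_cancel (measure_closedBall_pos _ _ S.δpos).ne'
    S.isCompact_A.measure_lt_top.ne

lemma ae_mem_A : ∀ᵐ x ∂S.α, x ∈ S.A :=
  Measure.ae_smul_measure (ae_restrict_mem S.measurableSet_A) _

lemma α_null {s : Set E3} (h : ∀ x ∈ S.A, x ∉ s) : S.α s = 0 :=
  measure_eq_zero_iff_ae_notMem.2 (S.ae_mem_A.mono h)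

/-- the one-particle density -/
noncomputable def μ : Measure E3 := (9 : ℝ≥0∞)⁻¹ • ∑ j, ∑ k, S.α.map (S.M j k)

/-- cyclically permuted triples -/
def T (j k : Fin 3) (x : E3) : E3 × E3 × E3 := (S.M j k x, S.M j (k + 1) x, S.M j (k + 2) x)

lemma measurable_T (j k : Fin 3) : Measurable (S.T j k) :=
  (S.measurable_M _ _).prodMk ((S.measurable_M _ _).prodMk (S.measurable_M _ _))

/-- the optimal plan -/
noncomputable def π : Measure (E3 × E3 × E3) := (9 : ℝ≥0∞)⁻¹ • ∑ j, ∑ k, S.α.map (S.T j k)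

lemma nine : (9 : ℝ≥0∞)⁻¹ * ∑ _j : Fin 3, ∑ _k : Fin 3, (1 : ℝ≥0∞) = 1 := by
  simp only [Finset.sum_const, Finset.card_univ, Fintype.card_fin, nsmul_eq_mul]
  rw [show ((3 : ℕ) : ℝ≥0∞) * (((3 : ℕ) : ℝ≥0∞) * 1) = 9 by norm_num]
  exact ENNReal.inv_mul_cancel (by norm_num) (by norm_num)

lemma μ_apply {s : Set E3} (hs : MeasurableSet s) :
    S.μ s = (9 : ℝ≥0∞)⁻¹ * ∑ j, ∑ k, S.α (S.M j k ⁻¹' s) := by
  simp only [μ, Measure.smul_apply, Measure.finsetSum_apply, smul_eq_mul,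
    Measure.map_apply (S.measurable_M _ _) hs]

instance : IsProbabilityMeasure S.μ := by
  constructor
  rw [S.μ_apply MeasurableSet.univ]
  simpa only [preimage_univ, measure_univ] using nine

lemma π_map {β : Type*} [MeasurableSpace β] {f : E3 × E3 × E3 → β} (hf : Measurable f) :
    S.π.map f = (9 : ℝ≥0∞)⁻¹ • ∑ j, ∑ k, S.α.map (f ∘ S.T j k) := by
  unfold π
  rw [Measure.map_smul, Measure.map_finset_sum hf.aemeasurable]
  congr 1
  refine Finset.sum_congr rfl fun j _ => ?_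
  rw [Measure.map_finset_sum hf.aemeasurable]
  exact Finset.sum_congr rfl fun k _ => Measure.map_map hf (S.measurable_T j k)

lemma isCoupling_π : IsCoupling S.μ S.π := by
  refine ⟨⟨?_⟩, ?_, ?_, ?_⟩
  · simp only [π, Measure.smul_apply, Measure.finsetSum_apply, smul_eq_mul,
      Measure.map_apply (S.measurable_T _ _) MeasurableSet.univ, preimage_univ, measure_univ]
    exact nine
  · rw [S.π_map (by fun_prop)]; rfl
  · rw [S.π_map (by fun_prop)]
    unfold μ
    congr 1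
    refine Finset.sum_congr rfl fun j _ => ?_
    exact Equiv.sum_comp (Equiv.addRight (1 : Fin 3)) (fun k => S.α.map (S.M j k))
  · rw [S.π_map (by fun_prop)]
    unfold μ
    congr 1
    refine Finset.sum_congr rfl fun j _ => ?_
    exact Equiv.sum_comp (Equiv.addRight (2 : Fin 3)) (fun k => S.α.map (S.M j k))

lemma μ_ac : S.μ ≪ volume := by
  refine Measure.AbsolutelyContinuous.mk fun N hN h0 => ?_
  rw [S.μ_apply hN]
  have : ∀ j k, S.α (S.M j k ⁻¹' N) = 0 := by
    intro j k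
    simp only [α, Measure.smul_apply, Measure.restrict_apply (S.measurable_M j k hN), smul_eq_mul]
    refine mul_eq_zero_of_right _ ?_
    fin_cases k
    · exact measure_mono_null inter_subset_left h0
    · exact null_preimage_of_anti (S.aY j) h0
    · exact null_preimage_of_anti (S.aZ j) h0
  simp [this]

lemma M_mem (j k : Fin 3) {x : E3} (hx : x ∈ S.A) : S.M j k x ∈ S.A ∨ S.Outer (S.M j k x) := by
  fin_cases k
  exacts [Or.inl hx, Or.inr ⟨j, x, hx, Or.inl rfl⟩, Or.inr ⟨j, x, hx, Or.inr rfl⟩]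

lemma ae_supp : ∀ᵐ p ∂S.μ, p ∈ S.A ∨ S.Outer p := by
  have hm : MeasurableSet (⋃ j, ⋃ k, S.M j k '' S.A) :=
    MeasurableSet.iUnion fun j => MeasurableSet.iUnion fun k =>
      (S.isCompact_A.image_of_continuousOn (S.continuousOn_M j k)).measurableSet
  have h0 : S.μ (⋃ j, ⋃ k, S.M j k '' S.A)ᶜ = 0 := by
    rw [S.μ_apply hm.compl]
    have : ∀ j k, S.α (S.M j k ⁻¹' (⋃ j, ⋃ k, S.M j k '' S.A)ᶜ) = 0 := by
      intro j k
      refine S.α_null fun x hxA hx => hx ?_
      exact mem_iUnion.2 ⟨j, mem_iUnion.2 ⟨k, x, hxA, rfl⟩⟩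
    simp only [this, Finset.sum_const_zero, mul_zero]
  have h1 : ∀ᵐ p ∂S.μ, p ∈ ⋃ j, ⋃ k, S.M j k '' S.A := h0
  filter_upwards [h1] with p hp
  simp only [mem_iUnion] at hp
  obtain ⟨j, k, x, hx, rfl⟩ := hp
  exact S.M_mem j k hx

/-- the potential with values in `ℝ≥0∞` -/
noncomputable def W (p : E3) : ℝ≥0∞ := ENNReal.ofReal (S.U p)

lemma measurable_W : Measurable S.W := S.measurable_U.ennreal_ofReal

lemma W_add {p q r : E3} (hp : p ∈ S.A ∨ S.Outer p) (hq : q ∈ S.A ∨ S.Outer q)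
    (hr : r ∈ S.A ∨ S.Outer r) :
    S.W p + S.W q + S.W r = ENNReal.ofReal (S.U p + S.U q + S.U r) := by
  have h1 := (S.bounds_S hp).1
  have h2 := (S.bounds_S hq).1
  have h3 := (S.bounds_S hr).1
  rw [ENNReal.ofReal_add (by positivity) h3, ENNReal.ofReal_add h1 h2]; rfl

/-- the dual value -/
noncomputable def I : ℝ≥0∞ := ∫⁻ p, S.W p ∂S.μ

lemma I_ne_top : S.I ≠ ∞ := by
  refine ne_top_of_le_ne_top (b := ∫⁻ _, ENNReal.ofReal 2 ∂S.μ) (by simp) (lintegral_mono_ae ?_)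
  filter_upwards [S.ae_supp] with p hp
  exact ENNReal.ofReal_le_ofReal (S.bounds_S hp).2.1

lemma lintegral_three {Ω : Type*} [MeasurableSpace Ω] (ν : Measure Ω) {f g h : Ω → E3}
    (hf : Measurable f) (hg : Measurable g) (hh : Measurable h)
    (ef : ν.map f = S.μ) (eg : ν.map g = S.μ) (eh : ν.map h = S.μ) :
    ∫⁻ ω, S.W (f ω) + S.W (g ω) + S.W (h ω) ∂ν = S.I + S.I + S.I := by
  have mW := S.measurable_W
  rw [lintegral_add_right _ (g := fun ω => S.W (h ω)) (mW.comp hh),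
    lintegral_add_right _ (g := fun ω => S.W (g ω)) (mW.comp hg)]
  have e : ∀ {f : Ω → E3}, Measurable f → ν.map f = S.μ → ∫⁻ ω, S.W (f ω) ∂ν = S.I := by
    intro f hf ef
    rw [I, ← ef, lintegral_map mW hf]
  rw [e hf ef, e hg eg, e hh eh]

lemma cost_T (j k : Fin 3) {x : E3} (hx : x ∈ S.A) :
    coulomb (S.T j k x).1 (S.T j k x).2.1 (S.T j k x).2.2 =
      S.W (S.T j k x).1 + S.W (S.T j k x).2.1 + S.W (S.T j k x).2.2 := by
  have h := S.equality j hx
  rw [← S.W_add (Or.inl hx) (Or.inr ⟨j, x, hx, Or.inl rfl⟩) (Or.inr ⟨j, x, hx, Or.inr rfl⟩)] at h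
  fin_cases k
  · exact h
  · change coulomb (S.Y j x) (S.Z j x) x = S.W (S.Y j x) + S.W (S.Z j x) + S.W x
    rw [coulomb_swap23, coulomb_swap12, h]
    ring
  · change coulomb (S.Z j x) x (S.Y j x) = S.W (S.Z j x) + S.W x + S.W (S.Y j x)
    rw [coulomb_swap12, coulomb_swap23, h]
    ring

lemma lintegral_π {f : E3 × E3 × E3 → ℝ≥0∞} (hf : Measurable f) :
    ∫⁻ p, f p ∂S.π = (9 : ℝ≥0∞)⁻¹ * ∑ j, ∑ k, ∫⁻ x, f (S.T j k x) ∂S.α := by
  simp only [π, lintegral_smul_measure, lintegral_finsetSum_measure, smul_eq_mul,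
    lintegral_map hf (S.measurable_T _ _)]

lemma kantorovich_le : kantorovich S.μ ≤ S.I + S.I + S.I := by
  have hc := S.isCoupling_π
  refine iInf_le_of_le S.π (iInf_le_of_le hc (le_of_eq ?_))
  have mW := S.measurable_W
  rw [← S.lintegral_three S.π (by fun_prop) (by fun_prop) (by fun_prop) hc.2.1 hc.2.2.1 hc.2.2.2,
    S.lintegral_π measurable_coulomb, S.lintegral_π (by fun_prop)]
  congr 1
  refine Finset.sum_congr rfl fun j _ => Finset.sum_congr rfl fun k _ => lintegral_congr_ae ?_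
  filter_upwards [S.ae_mem_A] with x hx
  exact S.cost_T j k hx

lemma μ_ge {s : Set E3} (hs : MeasurableSet s) : (9 : ℝ≥0∞)⁻¹ * (3 * S.α s) ≤ S.μ s := by
  rw [S.μ_apply hs]
  gcongr
  calc 3 * S.α s = ∑ _j : Fin 3, S.α s := by simp
    _ ≤ _ := Finset.sum_le_sum fun j _ =>
        Finset.single_le_sum (f := fun k => S.α (S.M j k ⁻¹' s)) (fun _ _ => zero_le)
          (Finset.mem_univ 0)

lemma M_ne_Y {i k j : Fin 3} {x y : E3} (hx : x ∈ S.A) (hy : y ∈ S.A)
    (h : S.M i k x = S.Y j y) : i = j ∧ k = 1 := by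
  have hY := S.nY j y hy
  fin_cases k
  · exfalso
    have h' : x = S.Y j y := h
    exact not_small (norm_ee j) hY (h' ▸ (S.norm_le hx).trans (by norm_num))
  · have h' : S.Y i x = S.Y j y := h
    refine ⟨?_, rfl⟩
    by_contra hij
    have c1 := coord_close (S.nY i x hx) i
    have c2 := coord_close hY i
    rw [h'] at c1
    simp only [ee, PiLp.single_apply, if_true, hij, if_false] at c1 c2
    linarith [c1.1, c2.2]
  · exfalso
    have h' : S.Z i x = S.Y j y := h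
    have c1 := coord_close (c := -ee i) (by simpa using S.nZ i x hx) i
    have c2 := coord_close hY i
    rw [h'] at c1
    simp only [ee, PiLp.neg_apply, PiLp.single_apply, if_true] at c1 c2
    have : (0 : ℝ) ≤ if i = j then 1 else 0 := by split_ifs <;> norm_num
    linarith [c1.2, c2.1]

lemma measurableSet_image_Y (j : Fin 3) {s : Set E3} (hs : MeasurableSet s) (hA : s ⊆ S.A) :
    MeasurableSet (S.Y j '' s) :=
  hs.image_of_continuousOn_injOn ((S.cY j).mono hA) ((injOn_of_anti (S.aY j)).mono hA)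

lemma μ_image_Y (j : Fin 3) {s : Set E3} (hs : MeasurableSet s) (hA : s ⊆ S.A) :
    S.μ (S.Y j '' s) ≤ (9 : ℝ≥0∞)⁻¹ * S.α s := by
  rw [S.μ_apply (S.measurableSet_image_Y j hs hA)]
  gcongr
  have hz : ∀ i k, ¬ (i = j ∧ k = 1) → S.α (S.M i k ⁻¹' (S.Y j '' s)) = 0 := by
    intro i k hik
    refine S.α_null fun x hxA hx => ?_
    obtain ⟨y, hy, hxy⟩ := hx
    exact hik (S.M_ne_Y hxA (hA hy) hxy.symm)
  rw [Finset.sum_eq_single j (fun i _ hi => Finset.sum_eq_zero fun k _ => hz i k fun h => hi h.1)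
    (by simp), Finset.sum_eq_single 1 (fun k _ hk => hz j k fun h => hk h.2) (by simp)]
  refine measure_mono_ae ?_
  filter_upwards [S.ae_mem_A] with x hxA hx
  obtain ⟨y, hy, hxy⟩ := hx
  have : y = x := injOn_of_anti (S.aY j) (hA hy) hxA hxy
  exact this ▸ hy

theorem no_monge : ¬ ∃ T₂ T₃ : E3 → E3, IsOptimalMonge S.μ T₂ T₃ := by
  rintro ⟨T₂, T₃, m2, m3, e2, e3, hopt⟩
  have s1 := S.ae_supp
  have s2 : ∀ᵐ x ∂S.μ, T₂ x ∈ S.A ∨ S.Outer (T₂ x) :=
    ae_of_ae_map (p := fun p => p ∈ S.A ∨ S.Outer p) m2.aemeasurable (by rwa [e2])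
  have s3 : ∀ᵐ x ∂S.μ, T₃ x ∈ S.A ∨ S.Outer (T₃ x) :=
    ae_of_ae_map (p := fun p => p ∈ S.A ∨ S.Outer p) m3.aemeasurable (by rwa [e3])
  have h3 := S.lintegral_three S.μ (f := id) measurable_id m2 m3 Measure.map_id e2 e3
  have hle : (fun x => S.W (id x) + S.W (T₂ x) + S.W (T₃ x)) ≤ᵐ[S.μ]
      fun x => coulomb x (T₂ x) (T₃ x) := by
    filter_upwards [s1, s2, s3] with x h1 h2 h3
    rw [id, S.W_add h1 h2 h3]
    exact S.dual_ineq h1 h2 h3
  have hI := S.I_ne_top
  have heq := ae_eq_of_ae_le_of_lintegral_le hle (by rw [h3]; finiteness)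
    (measurable_coulomb.comp (measurable_id.prodMk (m2.prodMk m3))).aemeasurable
    (by rw [h3, hopt]; exact S.kantorovich_le)
  set Ej : Fin 3 → Set E3 := fun j => S.A ∩ ({x | T₂ x = S.Y j x} ∪ {x | T₃ x = S.Y j x})
  have mE : ∀ j, MeasurableSet (Ej j) := fun j => S.measurableSet_A.inter
    ((measurableSet_eq_fun m2 (S.mY j)).union (measurableSet_eq_fun m3 (S.mY j)))
  have hE : ∀ j, S.α (Ej j) = 0 := by
    intro j
    have mF := S.measurableSet_image_Y j (mE j) inter_subset_left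
    have h1 : S.μ (Ej j) ≤ S.μ (S.Y j '' Ej j) + S.μ (S.Y j '' Ej j) := by
      calc S.μ (Ej j) ≤ S.μ (T₂ ⁻¹' (S.Y j '' Ej j) ∪ T₃ ⁻¹' (S.Y j '' Ej j)) := by
            refine measure_mono fun x hx => ?_
            rcases hx.2 with h | h
            · exact Or.inl ⟨x, hx, Eq.symm h⟩
            · exact Or.inr ⟨x, hx, Eq.symm h⟩
        _ ≤ _ := measure_union_le _ _
        _ = _ := by
            rw [← Measure.map_apply m2 mF, ← Measure.map_apply m3 mF, e2, e3]
    have h2 := S.μ_image_Y j (mE j) inter_subset_left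
    have h4 : (9 : ℝ≥0∞)⁻¹ * (3 * S.α (Ej j)) ≤ (9 : ℝ≥0∞)⁻¹ * (2 * S.α (Ej j)) := by
      refine (S.μ_ge (mE j)).trans (h1.trans ?_)
      rw [two_mul, mul_add]
      exact add_le_add h2 h2
    rw [ENNReal.mul_le_mul_iff_right (by norm_num) (by norm_num)] at h4
    have hfin : S.α (Ej j) ≠ ∞ := measure_ne_top _ _
    lift S.α (Ej j) to ℝ≥0 using hfin with a ha
    have h5 : (3 : ℝ≥0) * a ≤ 2 * a := by exact_mod_cast h4
    have h6 : (3 : ℝ) * a ≤ 2 * a := by exact_mod_cast h5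
    have h7 : (a : ℝ) = 0 := by linarith [a.coe_nonneg]
    exact_mod_cast h7
  have hcover : ∀ᵐ x ∂S.μ, x ∈ S.A → x ∈ ⋃ j, Ej j := by
    filter_upwards [s2, s3, heq] with x h2 h3 he hx
    rw [id, S.W_add (Or.inl hx) h2 h3] at he
    obtain ⟨j, hj⟩ := S.contact hx h2 h3 he.symm.le
    exact mem_iUnion.2 ⟨j, hx, hj⟩
  have hac : S.α ≪ S.μ := by
    refine Measure.AbsolutelyContinuous.mk fun N hN h0 => ?_
    have := S.μ_ge hN
    rw [h0, nonpos_iff_eq_zero] at this
    simpa using this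
  have hnot : ∀ᵐ x ∂S.α, x ∉ ⋃ j, Ej j := measure_eq_zero_iff_ae_notMem.1 (measure_iUnion_null hE)
  have hfalse : ∀ᵐ x ∂S.α, False := by
    filter_upwards [hac.ae_le hcover, hnot, S.ae_mem_A] with x h1 h2 h3
    exact h2 (h1 h3)
  obtain ⟨_, h⟩ := hfalse.exists
  exact h

end Setup

theorem counterexample : ∃ μ : Measure E3, IsProbabilityMeasure μ ∧ μ ≪ volume ∧
    kantorovich μ < ∞ ∧ ¬ ∃ T₂ T₃ : E3 → E3, IsOptimalMonge μ T₂ T₃ := by
  obtain ⟨S⟩ := exists_setup
  refine ⟨S.μ, inferInstance, S.μ_ac, ?_, S.no_monge⟩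
  have := S.I_ne_top
  exact S.kantorovich_le.trans_lt (by finiteness)

end Vale.Agent.P121
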