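import Vale.Agent.P121.Ineq
import Mathlib.MeasureTheory.Constructions.Polish.Basic
import Mathlib.MeasureTheory.Function.SpecialFunctions.Inner

/-! The global data of the counterexample and the pointwise dual inequality. -/

open Filter Topology Set Metric MeasureTheory
open scoped RealInnerProductSpace NNReal ENNReal

namespace Vale.Agent.P121

/-- basis vectors -/
noncomputable def ee (j : Fin 3) : E3 := EuclideanSpace.single j 1

lemma norm_ee (j : Fin 3) : ‖ee j‖ = 1 := by simp [ee]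

lemma inner_ee {j k : Fin 3} (h : j ≠ k) : ⟪ee j, ee k⟫ = 0 := by
  simp [ee, EuclideanSpace.inner_single_left, h]

lemma norm_ee_add {j k : Fin 3} (h : j ≠ k) : ‖ee j + ee k‖ ≤ 71 / 50 := by
  have := norm_add_sq_real (ee j) (ee k)
  rw [norm_ee, norm_ee, inner_ee h] at this
  nlinarith [norm_nonneg (ee j + ee k)]

lemma norm_ee_sub (j k : Fin 3) : ‖ee j - ee k‖ ≤ 71 / 50 := by
  by_cases h : j = k
  · subst h; norm_num
  have := norm_sub_sq_real (ee j) (ee k)
  rw [norm_ee, norm_ee, inner_ee h] at this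
  nlinarith [norm_nonneg (ee j - ee k)]

/-- all the data of the construction -/
structure Setup : Type where
  δ : ℝ
  Y : Fin 3 → E3 → E3
  Z : Fin 3 → E3 → E3
  V : Fin 3 → E3 → ℝ
  K : ℝ≥0
  δpos : 0 < δ
  δle : δ ≤ 1 / 100
  mY : ∀ j, Measurable (Y j)
  mZ : ∀ j, Measurable (Z j)
  mV : ∀ j, Measurable (V j)
  cY : ∀ j, ContinuousOn (Y j) (closedBall 0 δ)
  cZ : ∀ j, ContinuousOn (Z j) (closedBall 0 δ)
  aY : ∀ j, ∀ x ∈ closedBall (0 : E3) δ, ∀ x' ∈ closedBall (0 : E3) δ,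
    ‖x - x'‖ ≤ K * ‖Y j x - Y j x'‖
  aZ : ∀ j, ∀ x ∈ closedBall (0 : E3) δ, ∀ x' ∈ closedBall (0 : E3) δ,
    ‖x - x'‖ ≤ K * ‖Z j x - Z j x'‖
  nY : ∀ j, ∀ x ∈ closedBall (0 : E3) δ, ‖Y j x - ee j‖ ≤ 1 / 100
  nZ : ∀ j, ∀ x ∈ closedBall (0 : E3) δ, ‖Z j x + ee j‖ ≤ 1 / 100
  eqn : ∀ j, ∀ x ∈ closedBall (0 : E3) δ, FF (ee j) (x, Y j x, Z j x) = 0
  hV : ∀ j, ∀ x ∈ closedBall (0 : E3) δ, V j (Y j x) = val (ee j) x (Y j x) (Z j x)

lemma measurable_val (e : E3) {Y Z : E3 → E3} (hY : Measurable Y) (hZ : Measurable Z) :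
    Measurable fun x => val e x (Y x) (Z x) := by
  unfold val cR uu ww
  have : Measurable fun x => ⟪e, Z x + e⟫ := measurable_const.inner (hZ.add_const e)
  fun_prop

lemma injOn_of_anti {Y : E3 → E3} {s : Set E3} {K : ℝ≥0}
    (h : ∀ x ∈ s, ∀ x' ∈ s, ‖x - x'‖ ≤ K * ‖Y x - Y x'‖) : InjOn Y s := by
  intro x hx x' hx' hxx
  have := h x hx x' hx'
  rw [hxx, sub_self, norm_zero, mul_zero] at this
  exact sub_eq_zero.1 (norm_le_zero_iff.1 this)

theorem exists_setup : Nonempty Setup := by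
  classical
  choose Y Z K s hs cY cZ aY aZ h using fun j => exists_branch (norm_ee j)
  have hs' : (⋂ j, s j) ∩ closedBall 0 (1 / 100) ∈ 𝓝 (0 : E3) :=
    inter_mem (iInter_mem.2 hs) (closedBall_mem_nhds _ (by norm_num))
  obtain ⟨r, hr, hsub⟩ := Metric.nhds_basis_closedBall.mem_iff.1 hs'
  set δ := min r (1 / 100) with hδ
  have hδ0 : 0 < δ := lt_min hr (by norm_num)
  have hsub' : ∀ j, closedBall (0 : E3) δ ⊆ s j := fun j x hx =>
    mem_iInter.1 (hsub (closedBall_subset_closedBall (min_le_left _ _) hx)).1 j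
  set A := closedBall (0 : E3) δ
  have mA : MeasurableSet A := isClosed_closedBall.measurableSet
  set Y' : Fin 3 → E3 → E3 := fun j => A.piecewise (Y j) 0
  set Z' : Fin 3 → E3 → E3 := fun j => A.piecewise (Z j) 0
  have eY : ∀ j, ∀ x ∈ A, Y' j x = Y j x := fun j x hx => piecewise_eq_of_mem _ _ _ hx
  have eZ : ∀ j, ∀ x ∈ A, Z' j x = Z j x := fun j x hx => piecewise_eq_of_mem _ _ _ hx
  have mY : ∀ j, Measurable (Y' j) := fun j =>
    ((cY j).mono (hsub' j)).measurable_piecewise continuous_zero.continuousOn mA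
  have mZ : ∀ j, Measurable (Z' j) := fun j =>
    ((cZ j).mono (hsub' j)).measurable_piecewise continuous_zero.continuousOn mA
  have cY' : ∀ j, ContinuousOn (Y' j) A := fun j => ((cY j).mono (hsub' j)).congr (eY j)
  have cZ' : ∀ j, ContinuousOn (Z' j) A := fun j => ((cZ j).mono (hsub' j)).congr (eZ j)
  set K' : ℝ≥0 := ∑ j, K j
  have hK : ∀ j, (K j : ℝ) ≤ K' := fun j => by
    exact_mod_cast Finset.single_le_sum (f := K) (fun _ _ => zero_le) (Finset.mem_univ j)
  have aY' : ∀ j, ∀ x ∈ A, ∀ x' ∈ A, ‖x - x'‖ ≤ K' * ‖Y' j x - Y' j x'‖ := by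
    intro j x hx x' hx'
    rw [eY j x hx, eY j x' hx']
    refine (aY j x (hsub' j hx) x' (hsub' j hx')).trans ?_
    gcongr; exact hK j
  have aZ' : ∀ j, ∀ x ∈ A, ∀ x' ∈ A, ‖x - x'‖ ≤ K' * ‖Z' j x - Z' j x'‖ := by
    intro j x hx x' hx'
    rw [eZ j x hx, eZ j x' hx']
    refine (aZ j x (hsub' j hx) x' (hsub' j hx')).trans ?_
    gcongr; exact hK j
  have hV : ∀ j, ∃ V : E3 → ℝ, Measurable V ∧
      ∀ x ∈ A, V (Y' j x) = val (ee j) x (Y' j x) (Z' j x) := by
    intro j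
    have hemb := (cY' j).measurableEmbedding mA (injOn_of_anti (aY' j))
    obtain ⟨V, hVm, hV⟩ := hemb.exists_measurable_extend
      (g := fun x : A => val (ee j) x (Y' j x) (Z' j x))
      ((measurable_val (ee j) (mY j) (mZ j)).comp measurable_subtype_coe) (fun _ => ⟨0⟩)
    exact ⟨V, hVm, fun x hx => congrFun hV ⟨x, hx⟩⟩
  choose V mV hV using hV
  refine ⟨⟨δ, Y', Z', V, K', hδ0, min_le_right _ _, mY, mZ, mV, cY', cZ', aY', aZ', ?_, ?_, ?_,
    hV⟩⟩
  · intro j x hx; rw [eY j x hx]; exact (h j x (hsub' j hx)).1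
  · intro j x hx; rw [eZ j x hx]; exact (h j x (hsub' j hx)).2.1
  · intro j x hx; rw [eY j x hx, eZ j x hx]; exact (h j x (hsub' j hx)).2.2

namespace Setup

variable (S : Setup)

/-- central cluster -/
def A : Set E3 := closedBall 0 S.δ

lemma norm_le {x : E3} (hx : x ∈ S.A) : ‖x‖ ≤ 1 / 100 :=
  (mem_closedBall_zero_iff.1 hx).trans S.δle

open Classical in
/-- the Kantorovich potential -/
noncomputable def U (p : E3) : ℝ :=
  if ‖p‖ ≤ 1 / 2 then uu p else
    ∑ j, (if p j < -1 / 2 then ww (ee j) p else if 1 / 2 < p j then S.V j p else 0)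

lemma measurable_U : Measurable S.U := by
  unfold U
  refine Measurable.ite (measurableSet_le (by fun_prop) measurable_const) ?_ ?_
  · unfold uu; fun_prop
  · refine Finset.measurable_sum _ fun j _ => ?_
    refine Measurable.ite (measurableSet_lt (by fun_prop) measurable_const) ?_ ?_
    · unfold ww
      have : Measurable fun x : E3 => ⟪ee j, x + ee j⟫ :=
        measurable_const.inner (measurable_id.add_const _)
      fun_prop
    · exact Measurable.ite (measurableSet_lt measurable_const (by fun_prop)) (S.mV j)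
        measurable_const

lemma U_A {x : E3} (hx : x ∈ S.A) : S.U x = uu x := by
  unfold U
  rw [if_pos ((S.norm_le hx).trans (by norm_num))]

lemma coord_close {p c : E3} (h : ‖p - c‖ ≤ 1 / 100) (i : Fin 3) :
    c i - 1 / 100 ≤ p i ∧ p i ≤ c i + 1 / 100 := by
  have h1 : ‖(p - c) i‖ ≤ ‖p - c‖ := PiLp.norm_apply_le _ i
  have h2 := abs_le.1 (h1.trans h)
  simp only [PiLp.sub_apply] at h2
  constructor <;> linarith [h2.1, h2.2]

lemma not_small {p c : E3} (hc : ‖c‖ = 1) (h : ‖p - c‖ ≤ 1 / 100) : ¬ ‖p‖ ≤ 1 / 2 := by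
  have := (dist_xy (x := 0) hc (by norm_num) h).1
  rw [zero_sub, norm_neg] at this
  intro h2; linarith

lemma U_Y (j : Fin 3) {x : E3} (hx : x ∈ S.A) :
    S.U (S.Y j x) = val (ee j) x (S.Y j x) (S.Z j x) := by
  have h := S.nY j x hx
  unfold U
  rw [if_neg (not_small (norm_ee j) h), Finset.sum_eq_single j]
  · have := coord_close h j
    simp only [ee, PiLp.single_apply, if_true] at this
    rw [if_neg (by linarith [this.1]), if_pos (by linarith [this.1]), S.hV j x hx]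
  · intro i _ hi
    have := coord_close h i
    simp only [ee, PiLp.single_apply, hi, if_false] at this
    rw [if_neg (by linarith [this.1]), if_neg (by linarith [this.2])]
  · simp

lemma U_Z (j : Fin 3) {x : E3} (hx : x ∈ S.A) : S.U (S.Z j x) = ww (ee j) (S.Z j x) := by
  have h : ‖S.Z j x - -ee j‖ ≤ 1 / 100 := by simpa using S.nZ j x hx
  unfold U
  rw [if_neg (not_small (by simpa using norm_ee j) h), Finset.sum_eq_single j]
  · have := coord_close h j
    simp only [ee, PiLp.neg_apply, PiLp.single_apply, if_true] at this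
    rw [if_pos (by linarith [this.2])]
  · intro i _ hi
    have := coord_close h i
    simp only [ee, PiLp.neg_apply, PiLp.single_apply, hi, if_false] at this
    rw [if_neg (by linarith [this.1]), if_neg (by linarith [this.2])]
  · simp

/-- points of the six outer clusters -/
def Outer (p : E3) : Prop := ∃ j, ∃ x ∈ S.A, p = S.Y j x ∨ p = S.Z j x

lemma outer_bounds {p : E3} (hp : S.Outer p) :
    0 ≤ S.U p ∧ S.U p ≤ 31 / 100 ∧ ∃ c : E3, ‖c‖ = 1 ∧ ‖p - c‖ ≤ 1 / 100 := by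
  obtain ⟨j, x, hx, rfl | rfl⟩ := hp
  · have := val_bounds (norm_ee j) (S.norm_le hx) (S.nY j x hx) (S.nZ j x hx)
    rw [S.U_Y j hx]
    exact ⟨this.1, this.2, ee j, norm_ee j, S.nY j x hx⟩
  · have := ww_bounds (norm_ee j) (S.nZ j x hx)
    rw [S.U_Z j hx]
    exact ⟨by linarith [this.1], by linarith [this.2], -ee j, by simpa using norm_ee j,
      by simpa using S.nZ j x hx⟩

lemma A_bounds {x : E3} (hx : x ∈ S.A) : 0 ≤ S.U x ∧ S.U x ≤ 2 := by
  have := uu_bounds (S.norm_le hx)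
  rw [S.U_A hx]
  exact ⟨by linarith [this.1], this.2⟩

lemma dist_A_outer {x p : E3} (hx : x ∈ S.A) (hp : S.Outer p) : ‖x - p‖ ≤ 51 / 50 := by
  obtain ⟨-, -, c, hc, h⟩ := S.outer_bounds hp
  exact (dist_xy hc (S.norm_le hx) h).2

lemma dist_outer_outer {p q : E3} (hp : S.Outer p) (hq : S.Outer q) : ‖p - q‖ ≤ 101 / 50 := by
  obtain ⟨-, -, c, hc, h⟩ := S.outer_bounds hp
  obtain ⟨-, -, c', hc', h'⟩ := S.outer_bounds hq
  have h1 := (dist_bounds h h').2
  have h2 := norm_sub_le c c'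
  linarith

lemma strict_of_near {x p q : E3} (hx : x ∈ S.A) (hp : S.Outer p) (hq : S.Outer q)
    (hpq : ‖p - q‖ ≤ 36 / 25) : ENNReal.ofReal (S.U x + S.U p + S.U q) < coulomb x p q := by
  refine lt_of_lt_of_le ?_ (coulomb_ge (by norm_num) (by norm_num) (by norm_num)
    (S.dist_A_outer hx hp) (S.dist_A_outer hx hq) hpq)
  rw [ENNReal.ofReal_lt_ofReal_iff (by norm_num)]
  have h1 := S.A_bounds hx
  have h2 := S.outer_bounds hp
  have h3 := S.outer_bounds hq
  norm_num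
  linarith [h1.2, h2.2.1, h3.2.1]

lemma antipodal (j : Fin 3) {x a b : E3} (hx : x ∈ S.A) (ha : a ∈ S.A) (hb : b ∈ S.A) :
    ENNReal.ofReal (S.U x + S.U (S.Y j a) + S.U (S.Z j b)) ≤ coulomb x (S.Y j a) (S.Z j b) ∧
    (coulomb x (S.Y j a) (S.Z j b) ≤ ENNReal.ofReal (S.U x + S.U (S.Y j a) + S.U (S.Z j b)) →
      x = a) := by
  have h := main_ineq (norm_ee j) (S.norm_le ha) (S.nY j a ha) (S.nZ j a ha) (S.eqn j a ha)
    (S.norm_le hx) (S.nZ j b hb)
  have d1 := (dist_xy (norm_ee j) (S.norm_le hx) (S.nY j a ha)).1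
  have d2 := (dist_xz (norm_ee j) (S.norm_le hx) (S.nZ j b hb)).1
  have d3 : 49 / 50 ≤ ‖S.Y j a - S.Z j b‖ := by
    linarith [(dist_yz (norm_ee j) (S.nY j a ha) (S.nZ j b hb)).1]
  have hnn : 0 ≤ S.U x + S.U (S.Y j a) + S.U (S.Z j b) := by
    have h1 := (S.A_bounds hx).1
    have h2 := (S.outer_bounds ⟨j, a, ha, Or.inl rfl⟩).1
    have h3 := (S.outer_bounds ⟨j, b, hb, Or.inr rfl⟩).1
    linarith
  rw [coulomb_eq (ne_zero_of_le d1) (ne_zero_of_le d2) (ne_zero_of_le d3)]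
  rw [ENNReal.ofReal_le_ofReal_iff hnn]
  rw [S.U_A hx, S.U_Y j ha, S.U_Z j hb]
  have e : val (ee j) x (S.Y j a) (S.Z j b) =
    cR x (S.Y j a) (S.Z j b) - uu x - ww (ee j) (S.Z j b) := rfl
  refine ⟨ENNReal.ofReal_le_ofReal (by nlinarith [sq_nonneg ‖x - a‖]), fun h2 => ?_⟩
  have h3 : ‖x - a‖ ^ 2 ≤ 0 := by linarith
  have h4 : ‖x - a‖ = 0 := by nlinarith [norm_nonneg (x - a)]
  exact sub_eq_zero.1 (norm_eq_zero.1 h4)

lemma one_in_A {x p q : E3} (hx : x ∈ S.A) (hp : S.Outer p) (hq : S.Outer q) :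
    ENNReal.ofReal (S.U x + S.U p + S.U q) ≤ coulomb x p q ∧
    (coulomb x p q ≤ ENNReal.ofReal (S.U x + S.U p + S.U q) →
      ∃ j, p = S.Y j x ∨ q = S.Y j x) := by
  by_cases hpq : ‖p - q‖ ≤ 36 / 25
  · have := S.strict_of_near hx hp hq hpq
    exact ⟨this.le, fun h => absurd h (not_le.2 this)⟩
  obtain ⟨j, a, ha, rfl | rfl⟩ := hp <;> obtain ⟨k, b, hb, rfl | rfl⟩ := hq
  · refine absurd ?_ hpq
    linarith [(dist_bounds (S.nY j a ha) (S.nY k b hb)).2, norm_ee_sub j k]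
  · by_cases hjk : j = k
    · subst hjk
      have := S.antipodal j hx ha hb
      exact ⟨this.1, fun h => ⟨j, Or.inl (by rw [this.2 h])⟩⟩
    · refine absurd ?_ hpq
      have := (dist_bounds (cb := -ee k) (S.nY j a ha) (by simpa using S.nZ k b hb)).2
      rw [sub_neg_eq_add] at this
      linarith [norm_ee_add hjk]
  · by_cases hjk : j = k
    · subst hjk
      have := S.antipodal j hx hb ha
      rw [coulomb_swap23, add_right_comm] at this
      exact ⟨this.1, fun h => ⟨j, Or.inr (by rw [this.2 h])⟩⟩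
    · refine absurd ?_ hpq
      have := (dist_bounds (cb := -ee j) (S.nY k b hb) (by simpa using S.nZ j a ha)).2
      rw [sub_neg_eq_add, norm_sub_rev] at this
      linarith [norm_ee_add (Ne.symm hjk)]
  · refine absurd ?_ hpq
    have := (dist_bounds (ca := -ee j) (cb := -ee k) (by simpa using S.nZ j a ha)
      (by simpa using S.nZ k b hb)).2
    rw [neg_sub_neg] at this
    linarith [norm_ee_sub k j]

lemma bounds_S {p : E3} (hp : p ∈ S.A ∨ S.Outer p) : 0 ≤ S.U p ∧ S.U p ≤ 2 ∧ ‖p‖ ≤ 2 := by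
  rcases hp with hp | hp
  · exact ⟨(S.A_bounds hp).1, (S.A_bounds hp).2, by linarith [S.norm_le hp]⟩
  · obtain ⟨h1, h2, c, hc, h⟩ := S.outer_bounds hp
    refine ⟨h1, by linarith, ?_⟩
    have := (dist_xy (x := 0) hc (by norm_num) h).2
    rw [zero_sub, norm_neg] at this
    linarith

lemma two_in_A {x y q : E3} (hx : x ∈ S.A) (hy : y ∈ S.A) (hq : q ∈ S.A ∨ S.Outer q) :
    ENNReal.ofReal (S.U x + S.U y + S.U q) < coulomb x y q := by
  have hxy : ‖x - y‖ ≤ 1 / 50 := by linarith [norm_sub_le x y, S.norm_le hx, S.norm_le hy]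
  have h3 := S.bounds_S hq
  have hxq : ‖x - q‖ ≤ 3 := by linarith [norm_sub_le x q, S.norm_le hx, h3.2.2]
  have hyq : ‖y - q‖ ≤ 3 := by linarith [norm_sub_le y q, S.norm_le hy, h3.2.2]
  refine lt_of_lt_of_le ?_ (coulomb_ge (by norm_num) (by norm_num) (by norm_num) hxy hxq hyq)
  rw [ENNReal.ofReal_lt_ofReal_iff (by norm_num)]
  norm_num
  linarith [(S.A_bounds hx).2, (S.A_bounds hy).2, h3.2.1]

lemma none_in_A {p q r : E3} (hp : S.Outer p) (hq : S.Outer q) (hr : S.Outer r) :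
    ENNReal.ofReal (S.U p + S.U q + S.U r) < coulomb p q r := by
  refine lt_of_lt_of_le ?_ (coulomb_ge (by norm_num) (by norm_num) (by norm_num)
    (S.dist_outer_outer hp hq) (S.dist_outer_outer hp hr) (S.dist_outer_outer hq hr))
  rw [ENNReal.ofReal_lt_ofReal_iff (by norm_num)]
  norm_num
  linarith [(S.outer_bounds hp).2.1, (S.outer_bounds hq).2.1, (S.outer_bounds hr).2.1]

theorem dual_ineq {p q r : E3} (hp : p ∈ S.A ∨ S.Outer p) (hq : q ∈ S.A ∨ S.Outer q)
    (hr : r ∈ S.A ∨ S.Outer r) : ENNReal.ofReal (S.U p + S.U q + S.U r) ≤ coulomb p q r := by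
  rcases hp with hp | hp <;> rcases hq with hq | hq
  · exact (S.two_in_A hp hq hr).le
  · rcases hr with hr | hr
    · rw [coulomb_swap23, add_right_comm]; exact (S.two_in_A hp hr (Or.inr hq)).le
    · exact (S.one_in_A hp hq hr).1
  · rcases hr with hr | hr
    · rw [coulomb_swap12, coulomb_swap23, add_comm (S.U p), add_right_comm]
      exact (S.two_in_A hq hr (Or.inr hp)).le
    · rw [coulomb_swap12, add_comm (S.U p)]; exact (S.one_in_A hq hp hr).1
  · rcases hr with hr | hr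
    · rw [coulomb_swap23, coulomb_swap12, add_right_comm, add_comm (S.U p)]
      exact (S.one_in_A hr hp hq).1
    · exact (S.none_in_A hp hq hr).le

theorem contact {p q r : E3} (hp : p ∈ S.A) (hq : q ∈ S.A ∨ S.Outer q)
    (hr : r ∈ S.A ∨ S.Outer r) (h : coulomb p q r ≤ ENNReal.ofReal (S.U p + S.U q + S.U r)) :
    ∃ j, q = S.Y j p ∨ r = S.Y j p := by
  rcases hq with hq | hq
  · exact absurd h (not_le.2 (S.two_in_A hp hq hr))
  · rcases hr with hr | hr
    · rw [coulomb_swap23, add_right_comm] at h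
      exact absurd h (not_le.2 (S.two_in_A hp hr (Or.inr hq)))
    · exact (S.one_in_A hp hq hr).2 h

theorem equality (j : Fin 3) {x : E3} (hx : x ∈ S.A) :
    coulomb x (S.Y j x) (S.Z j x) = ENNReal.ofReal (S.U x + S.U (S.Y j x) + S.U (S.Z j x)) := by
  have d1 := (dist_xy (norm_ee j) (S.norm_le hx) (S.nY j x hx)).1
  have d2 := (dist_xz (norm_ee j) (S.norm_le hx) (S.nZ j x hx)).1
  have d3 : 49 / 50 ≤ ‖S.Y j x - S.Z j x‖ := by
    linarith [(dist_yz (norm_ee j) (S.nY j x hx) (S.nZ j x hx)).1]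
  rw [coulomb_eq (ne_zero_of_le d1) (ne_zero_of_le d2) (ne_zero_of_le d3),
    S.U_A hx, S.U_Y j hx, S.U_Z j hx]
  congr 1
  unfold val; ring

end Setup

end Vale.Agent.P121
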